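import Vale.Agent.P030.AR.Flat
import Vale.Agent.P030.H787.PGVec
import Vale.Agent.P030.H265.FrameAlg
import Vale.Agent.P030.H3.KZero

/-!
# The cusp `c2` of route N: log-free adapted frame

`E2 t` = the log-free parts of the rows of the flat frame `F8 = (e, b, Q, d, V2, s6 | A2)` at `c2`,
`t = 1/u`; transitions to the global vectors for arbitrary `T`.
-/

open PowerSeries Matrix

set_option linter.unusedSimpArgs false
set_option linter.unreachableTactic false
set_option linter.unusedTactic false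

namespace Vale.Agent.P030.H514

open Vale.Agent.P030.T Vale.Agent.P030.H462 Vale.Agent.P030.AR

noncomputable section

/-- the log-free adapted rows at `c2` -/
def E2 (t : ℂ) : Fin 8 → Fin 8 → ℂ :=
  ![evt vO0 t + l2 • evt vE0 t + (pc ^ 2 / 6) • tupC .v2 t + (pc ^ 2 / 12) • tupC .vl t
      - (pc ^ 2 / 4) • hv + (pc * l2 / 4 - xc) • tupC .v8 t - (pc / 8) • evt vM0 t,
    evt vE0 t - tupC .vb t - (l2 / 2) • tupC .vl t,
    tupC .vb t + (l2 / 2) • tupC .vl t - (pc / 8) • tupC .v8 t,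
    dv,
    tupC .v2 t,
    hv - tupC .v2 t + (3 / (4 * pc)) • (evt vM0 t - (2 * l2) • tupC .v8 t),
    tupC .v8 t,
    evt vM0 t]

/-- the global vectors `e, a, c, d, g, h, A0, A3` in the rows `E2` -/
def LE2 (T : ℂ) : Matrix (Fin 8) (Fin 8) ℂ :=
  !![1, 0, T, 0, T ^ 2 / 2, 0, 0, 0;
     0, 1, 1, T / 2 - Complex.I * pc, T / 2, Complex.I * pc,
       pc / 8 + 3 * Complex.I * l2 / 2, -(3 * Complex.I / 4);
     0, 0, 1, -(l2 / 2), T - l2 / 2, Complex.I * pc, pc / 8 + 3 * Complex.I * l2 / 2,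
       -(3 * Complex.I / 4);
     0, 0, 0, 1, 0, 0, 0, 0;
     0, 0, 0, -1, 0, 1, 3 * l2 / (2 * pc), -(3 / (4 * pc));
     0, 0, 0, 0, 1, 1, 3 * l2 / (2 * pc), -(3 / (4 * pc));
     0, 0, 0, 0, 0, 0, -(pc / 2) - Complex.I * (T - 2 * l2), -Complex.I;
     0, 0, 0, 0, 0, 0, Complex.I * pc - (T - 2 * l2), -1]

/-- the rows `E2` in the global vectors -/
def ME2 (T : ℂ) : Matrix (Fin 8) (Fin 8) ℂ :=
  !![1, 0, -T, -(T ^ 2 / 2 - Complex.I * pc * T), T * l2 / 2 - (T ^ 2 / 2 - Complex.I * pc * T),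
       T ^ 2 / 2 - T * l2 / 2, T / 4, -(Complex.I * T / 4);
     0, 1, -1, Complex.I * pc - T, l2 / 2 - T / 2, T / 2 - l2 / 2, 0, 0;
     0, 0, 1, T - Complex.I * pc, T - Complex.I * pc - l2 / 2, l2 / 2 - T, -(1 / 4),
       Complex.I / 4;
     0, 0, 0, 1, 0, 0, 0, 0;
     0, 0, 0, -1, -1, 1, 0, 0;
     0, 0, 0, 1, 1, 0, 3 * Complex.I / (2 * pc) - 3 * T / (2 * pc ^ 2),
       3 / (4 * pc) + 3 * Complex.I * T / (2 * pc ^ 2);
     0, 0, 0, 0, 0, 0, 2 / pc, -(2 * Complex.I / pc);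
     0, 0, 0, 0, 0, 0, 2 * Complex.I - (T - 2 * l2) * (2 / pc),
       1 + (T - 2 * l2) * (2 * Complex.I / pc)]

theorem gl2_E (T t : ℂ) (i : Fin 8) : gl2 T t i = ∑ m, LE2 T i m • E2 t m := by
  have hp := pc_ne
  fin_cases i <;>
    simp [gl2, LE2, E2, Fin.sum_univ_eight, vEv, vMv, A1v, A2v, tupC_v2, tupC_vl]
  all_goals try module
  all_goals
    match_scalars <;> first
      | ring1
      | (field_simp; ring1)
      | (field_simp; linear_combination Complex.I_sq)
      | linear_combination pc * Complex.I_sq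

theorem ME2_mul_LE2 (T : ℂ) (i j : Fin 8) :
    (ME2 T * LE2 T) i j = (1 : Matrix (Fin 8) (Fin 8) ℂ) i j := by
  have hp := pc_ne
  have hI : Complex.I ^ 2 = -1 := Complex.I_sq
  have hI3 : Complex.I ^ 3 = -Complex.I := by rw [pow_succ, hI]; ring
  revert j
  fin_cases i <;> intro j <;> fin_cases j <;>
    simp [ME2, LE2, Matrix.mul_apply, Fin.sum_univ_eight, Matrix.one_apply]
  all_goals first
    | ring1
    | (field_simp; done)
    | (field_simp; ring1)
    | (field_simp; ring_nf; simp only [hI, hI3]; ring1)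
    | (ring_nf; simp only [hI, hI3]; field_simp; ring1)

theorem E2_gl2 (T t : ℂ) (m : Fin 8) : E2 t m = ∑ i, ME2 T m i • gl2 T t i := by
  simp_rw [gl2_E T t, Finset.smul_sum, smul_smul]
  rw [Finset.sum_comm]
  simp_rw [← Finset.sum_smul]
  have h : ∀ k, ∑ i, ME2 T m i * LE2 T i k = (1 : Matrix (Fin 8) (Fin 8) ℂ) m k := fun k => by
    rw [← ME2_mul_LE2 T, Matrix.mul_apply]
  simp_rw [h, Matrix.one_apply]
  simp

/-! ### the coordinates of route N -/

/-- `(x0, x1, x2, x3 - x4, x5, x4, x6, x7)` -/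
def yco (v : Fin 8 → ℂ) : Fin 8 → ℂ := ![v 0, v 1, v 2, v 3 - v 4, v 5, v 4, v 6, v 7]

/-- the adapted rows in the coordinates `yco` -/
def P2 (t : ℂ) : Matrix (Fin 8) (Fin 8) ℂ := fun i => yco (E2 t i)

theorem evq_C' (q : ℚ) (t : ℂ) : evq (C q) t = (q : ℂ) := evq_C q t

theorem adap_P2 (t : ℂ) : H265.Adap (P2 t) := by
  refine ⟨?_, ?_, ?_, ?_⟩
  · intro i j hi hij
    fin_cases i <;> fin_cases j <;>
      first
        | (exact absurd hi (by decide))
        | (exact absurd hij (by decide))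
        | (simp [P2, yco, E2, evt, tupC, tup0, tup1, vO0, vE0, vM0, hv, dv, evq_zero, evq_one,
            evq_neg, evq_neg_one, Pi.single_apply])
  · intro i hi
    fin_cases i <;>
      first
        | (exact absurd hi (by decide))
        | (simp [P2, yco, E2, evt, tupC, tup0, tup1, vO0, vE0, vM0, hv, dv, evq_zero, evq_one,
            evq_neg, evq_neg_one, Pi.single_apply])
  · intro j hj
    fin_cases j <;>
      first
        | (exact absurd hj (by decide))
        | (simp [P2, yco, E2, evt, tupC, tup0, tup1, vO0, vE0, vM0, hv, dv, evq_zero, evq_one,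
            evq_neg, evq_neg_one, Pi.single_apply])
  · intro j hj
    fin_cases j <;>
      first
        | (exact absurd hj (by decide))
        | (simp [P2, yco, E2, evt, tupC, tup0, tup1, vO0, vE0, vM0, hv, dv, evq_zero, evq_one,
            evq_neg, evq_neg_one, Pi.single_apply])

end

end Vale.Agent.P030.H514
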