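import Vale.Agent.P030.H639.N8a
import Vale.Agent.P030.H639.N8b

/-!
# Route N, cusp `c2`: transitions between the cell `F8` and the disc frame (constants)

Rows `e, a, c, d, h, d+g, A0/π, A3/π`.  `BF8` = constants of the cell, `BD2` = constants of the disc
(real rows), `LA2 T` = the logarithm in these rows.
-/

open Matrix

namespace Vale.Agent.P030.H514

open Vale.Agent.P030.AR Vale.Agent.P030.H639 Vale.Agent.P030.H265

set_option linter.unusedSimpArgs false
set_option linter.unreachableTactic false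
set_option linter.unusedTactic false

noncomputable section

/-- the change of rows -/
def AL : Matrix (Fin 8) (Fin 8) ℂ :=
  !![1, 0, 0, 0, 0, 0, 0, 0;
     0, 1, 0, 0, 0, 0, 0, 0;
     0, 0, 1, 0, 0, 0, 0, 0;
     0, 0, 0, 1, 0, 0, 0, 0;
     0, 0, 0, 0, 0, 1, 0, 0;
     0, 0, 0, 1, 1, 0, 0, 0;
     0, 0, 0, 0, 0, 0, pc⁻¹, 0;
     0, 0, 0, 0, 0, 0, 0, pc⁻¹]

/-- the cell `F8 = (e, b, Q, d, V2, s6 | A2)` -/
def BF8 : Matrix (Fin 8) (Fin 8) ℂ :=
  !![1, 0, 0, 0, 0, 0, 0, 0;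
     0, 1, -1, Complex.I * pc - l2 / 2, -(l2 / 2), l2 / 2, 0, 0;
     0, 0, 1, l2 / 2, l2 / 2 - Complex.I * pc, -(l2 / 2), -(pc / 4), Complex.I * pc / 4;
     0, 0, 0, 1, 0, 0, 0, 0;
     0, 0, 0, 0, 1, -1, 0, 0;
     0, 0, 0, 0, 0, 1, 3 * Complex.I / 2, 3 / 4;
     0, 0, 0, 0, 0, 0, 1, -Complex.I;
     0, 0, 0, 0, 0, 0, 0, 0]

/-- the disc: `Q` replaced by `Q + i π V2`, real at `T = 0` -/
def BD2 : Matrix (Fin 8) (Fin 8) ℂ :=
  !![1, 0, 0, 0, 0, 0, 0, 0;
     0, 1, -1, Complex.I * pc - l2 / 2, -(l2 / 2), l2 / 2, 0, 0;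
     0, 0, 1, l2 / 2, l2 / 2, -(l2 / 2) - Complex.I * pc, -(pc / 4), Complex.I * pc / 4;
     0, 0, 0, 1, 0, 0, 0, 0;
     0, 0, 0, 0, 1, -1, 0, 0;
     0, 0, 0, 0, 0, 1, 3 * Complex.I / 2, 3 / 4;
     0, 0, 0, 0, 0, 0, 1, -Complex.I;
     0, 0, 0, 0, 0, 0, 0, 0]

/-- the logarithm in the rows `AL` -/
def LA2 (T : ℂ) : Matrix (Fin 8) (Fin 8) ℂ :=
  !![1, 0, T, l2 / 2 * T, l2 / 2 * T + T ^ 2 / 2, -((l2 / 2 + Complex.I * pc) * T) - T ^ 2 / 2,
        -(pc * T / 4), Complex.I * pc * T / 4;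
     0, 1, 0, T / 2, T / 2, -(T / 2), 0, 0;
     0, 0, 1, 0, T, -T, 0, 0;
     0, 0, 0, 1, 0, 0, 0, 0;
     0, 0, 0, 0, 1, 0, 0, 0;
     0, 0, 0, 0, 0, 1, 0, 0;
     0, 0, 0, 0, 0, 0, 1 - 2 * Complex.I / pc * T, -(2 / pc * T);
     0, 0, 0, 0, 0, 0, -(2 / pc * T), 1 + 2 * Complex.I / pc * T]

theorem AL_E2 (T : ℂ) : AL * E 2 T = LA2 T * AL := by
  have hp := pc_ne
  ext i j
  revert j
  fin_cases i <;> intro j <;> fin_cases j <;>
    simp [AL, E, LA2, Matrix.mul_apply, Fin.sum_univ_eight]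
  all_goals first
    | ring1
    | (field_simp; done)
    | (field_simp; ring1)

/-- cell to disc -/
def Mu2 (T : ℂ) : Matrix (Fin 8) (Fin 8) ℂ :=
  !![1, 0, T, 0, T ^ 2 / 2, 0, 0, 0;
     0, 1, 0, T / 2, -(T / 2), 0, 0, 0;
     0, 0, 1, 0, T - Complex.I * pc, 0, 0, 0;
     0, 0, 0, 1, 0, 0, 0, 0;
     0, 0, 0, 0, 1, 0, 0, 0;
     0, 0, 0, 0, 0, 1, 3 * T / (2 * pc), -(3 * Complex.I * T / (2 * pc));
     0, 0, 0, 0, 0, 0, 1, -Complex.I;
     0, 0, 0, 0, 0, 0, 0, 0]

/-- disc to cell -/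
def Md2 (T : ℂ) : Matrix (Fin 8) (Fin 8) ℂ :=
  !![1, 0, -T, 0, T ^ 2 / 2 - Complex.I * pc * T, 0, 0, 0;
     0, 1, 0, -(T / 2), T / 2, 0, 0, 0;
     0, 0, 1, 0, Complex.I * pc - T, 0, 0, 0;
     0, 0, 0, 1, 0, 0, 0, 0;
     0, 0, 0, 0, 1, 0, 0, 0;
     0, 0, 0, 0, 0, 1, -(3 * T / (2 * pc)), 3 * Complex.I * T / (2 * pc);
     0, 0, 0, 0, 0, 0, 1, -Complex.I;
     0, 0, 0, 0, 0, 0, 0, 0]

theorem rel_up2 (T : ℂ) : Rel BF8 (LA2 T) BD2 (Mu2 T) := by
  have hp := pc_ne
  have hI : Complex.I ^ 2 = -1 := Complex.I_sq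
  have hI3 : Complex.I ^ 3 = -Complex.I := by rw [pow_succ, hI]; ring
  refine ⟨?_, ?_, ?_⟩
  · intro b hb i
    fin_cases b <;> first
      | exact absurd hb (by decide)
      | (fin_cases i <;>
          simp [BF8, BD2, LA2, Mu2, Fin.sum_univ_eight])
    all_goals first
      | ring1
      | (field_simp; done)
      | (field_simp; ring1)
      | (field_simp; ring_nf; simp only [hI, hI3]; ring1)
  · intro i hi
    rcases hi with rfl | rfl <;> simp [BF8, LA2, Mu2]
    all_goals first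
      | ring1
      | (field_simp; done)
      | (field_simp; ring1)
      | (field_simp; ring_nf; simp only [hI, hI3]; ring1)
  · intro j hj
    fin_cases j <;> first
      | exact absurd hj (by decide)
      | (simp [LA2])

theorem rel_dn2 (T : ℂ) : Rel BD2 (LA2 (-T)) BF8 (Md2 T) := by
  have hp := pc_ne
  have hI : Complex.I ^ 2 = -1 := Complex.I_sq
  have hI3 : Complex.I ^ 3 = -Complex.I := by rw [pow_succ, hI]; ring
  refine ⟨?_, ?_, ?_⟩
  · intro b hb i
    fin_cases b <;> first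
      | exact absurd hb (by decide)
      | (fin_cases i <;>
          simp [BF8, BD2, LA2, Md2, Fin.sum_univ_eight])
    all_goals first
      | ring1
      | (field_simp; done)
      | (field_simp; ring1)
      | (field_simp; ring_nf; simp only [hI, hI3]; ring1)
  · intro i hi
    rcases hi with rfl | rfl <;> simp [BD2, LA2, Md2]
    all_goals first
      | ring1
      | (field_simp; done)
      | (field_simp; ring1)
      | (field_simp; ring_nf; simp only [hI, hI3]; ring1)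
  · intro j hj
    fin_cases j <;> first
      | exact absurd hj (by decide)
      | (simp [LA2])

theorem cst_BF8 : Cst BF8 := by
  refine ⟨?_, ?_, ?_⟩
  · intro i j hi hij
    fin_cases i <;> fin_cases j <;>
      first
        | (exact absurd hi (by decide))
        | (exact absurd hij (by decide))
        | (simp [BF8])
  · intro i hi
    fin_cases i <;>
      first
        | (exact absurd hi (by decide))
        | (simp [BF8])
  · intro j hj
    fin_cases j <;>
      first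
        | (exact absurd hj (by decide))
        | (simp [BF8])

theorem cst_BD2 : Cst BD2 := by
  refine ⟨?_, ?_, ?_⟩
  · intro i j hi hij
    fin_cases i <;> fin_cases j <;>
      first
        | (exact absurd hi (by decide))
        | (exact absurd hij (by decide))
        | (simp [BD2])
  · intro i hi
    fin_cases i <;>
      first
        | (exact absurd hi (by decide))
        | (simp [BD2])
  · intro j hj
    fin_cases j <;>
      first
        | (exact absurd hj (by decide))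
        | (simp [BD2])

/-- the pairs of levels which occur at the circle of `c2` -/
def pat2 : List (Fin 8 × Fin 8) := [(0, 2), (0, 4), (1, 3), (1, 4), (2, 4), (5, 6)]

theorem zr_up2 (T : ℂ) {b c : Fin 8} (hbc : b ≠ c) (h : (b, c) ∉ pat2) : Zr (Mu2 T) BD2 b c := by
  have hI : Complex.I ^ 2 = -1 := Complex.I_sq
  fin_cases b <;> fin_cases c <;>
    first
      | exact absurd rfl hbc
      | exact absurd (by decide) h
      | (simp [Zr, Mu2, BD2]; done)
      | (simp [Zr, Mu2, BD2]; ring1)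

theorem zr_dn2 (T : ℂ) {b c : Fin 8} (hbc : b ≠ c) (h : (b, c) ∉ pat2) : Zr (Md2 T) BF8 b c := by
  have hI : Complex.I ^ 2 = -1 := Complex.I_sq
  fin_cases b <;> fin_cases c <;>
    first
      | exact absurd rfl hbc
      | exact absurd (by decide) h
      | (simp [Zr, Md2, BF8]; done)
      | (simp [Zr, Md2, BF8]; ring1)

end

end Vale.Agent.P030.H514
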