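import Vale.Agent.P030.H352.DiscPat
import Vale.Agent.P030.H514.C2
import Vale.Agent.P030.H514.C2Tr

/-!
# Route N, cusp `c2`: transitions between the cell `F8` and the disc, group totals
-/

open Matrix

namespace Vale.Agent.P030.H514

open Vale.Agent.P030.T Vale.Agent.P030.AR Vale.Agent.P030.H639 Vale.Agent.P030.H265
open Vale.Agent.P030.H580

set_option linter.unusedSimpArgs false
set_option linter.unreachableTactic false
set_option linter.unusedTactic false

noncomputable section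

theorem AL_eq : H352.Ar = AL := by
  simp only [H352.Ar, AL, one_div]

/-- **the constants of the cusp `c2`** -/
def ct2 : H352.CT 2 BF8 (fun b c => (b, c) ∈ pat2) where
  LA := LA2
  lam := fun T => by rw [AL_eq]; exact AL_E2 T
  Mu := Mu2
  Md := Md2
  cst := cst_BF8
  up := rel_up2
  dn := rel_dn2
  zu := fun T _ _ h1 h2 => zr_up2 T h1 h2
  zd := fun T _ _ h1 h2 => zr_dn2 T h1 h2

theorem kFd_ne {z : ℂ} (hz : yz z ∈ RY 2) :
    kF (H352.adm H352.Ar H352.Qr (glc 2 0 (H352.tz 2 z))) 1 (-Complex.I) ≠ 0 :=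
  H352.kF_ne H352.bch_r (H352.fit_BR 2) (H352.norm_tz_lt (H352.RY_sub_DY hz))
    fun _ => H352.tY_ne hz

/-- the cell `F8` is a frame on the whole region of `c2` -/
theorem kFu_ne {X : Fin 8 → ℂ → Fin 8 → ℂ} (hX : YD X) {z : ℂ} (hz : yz z ∈ RY 2) :
    kF (Pz X z) (BF8 6 6) (BF8 6 7) ≠ 0 := by
  rw [kF_rel (rel_up2 (TY 2 (yz z))) (ct2.Pz_rel hX hz)]
  have h1 : Mu2 (TY 2 (yz z)) 6 6 = 1 := by simp [Mu2]
  have h2 : Mu2 (TY 2 (yz z)) 6 7 = -Complex.I := by simp [Mu2]
  rw [h1, h2]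
  exact kFd_ne hz

/-! ### the rows of the disc frame and the groups of `c2` -/

theorem row_E2 (t : ℂ) {b : Fin 8} (hb : b < 6) (l : Fin 8) :
    ∑ k, (H352.BR 2 * H352.Ar) b k * glc 2 0 t k l = E2 t b l := by
  have hp := pc_ne
  have hI : Complex.I ^ 2 = -1 := Complex.I_sq
  have e : glc 2 = gl2 := rfl
  simp only [e, gl2_E, Finset.sum_apply, Pi.smul_apply, smul_eq_mul, H352.mul_Ar,
    Fin.sum_univ_eight]
  fin_cases b <;> first
    | exact absurd hb (by decide)
    | (simp [H352.BR, LE2]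
       try field_simp
       try ring_nf
       try simp only [hI]
       try ring1)

theorem Sr2_row (t : ℂ) {b : Fin 8} (hb : b < 6) : H352.Sr 2 t b = colY (E2 t b) := by
  funext j
  unfold H352.Sr
  rw [H352.Sd_lt hb]
  simp only [row_E2 t hb, Fin.sum_univ_eight]
  fin_cases j <;> simp [H352.Qr, colY]
  all_goals ring1

theorem colY_add (v w : Fin 8 → ℂ) : colY (v + w) = colY v + colY w := by
  funext j
  fin_cases j <;> simp [colY]
  all_goals ring1

theorem colY_smul (a : ℂ) (v : Fin 8 → ℂ) : colY (a • v) = a • colY v := by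
  funext j
  fin_cases j <;> simp [colY]
  all_goals ring1

/-- `v2` -/
theorem tot_v2 (t : ℂ) : colY (tupC .v2 t) = H352.Sr 2 t 4 := by
  rw [Sr2_row t (by decide)]; rfl

/-- `vl` -/
theorem tot_vl (t : ℂ) : colY (tupC .vl t) = H352.Sr 2 t 3 + H352.Sr 2 t 4 := by
  rw [Sr2_row t (by decide), Sr2_row t (by decide), ← colY_add]
  congr 1
  change tupC .vl t = dv + tupC .v2 t
  rw [tupC_vl, tupC_v2]
  module

/-- `vb + (l/2) vl - (π/8) v8` -/
theorem tot_vb (t : ℂ) :
    colY (tupC .vb t + (l2 / 2) • tupC .vl t - (pc / 8) • tupC .v8 t) = H352.Sr 2 t 2 := by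
  rw [Sr2_row t (by decide)]; rfl

/-- `v8` -/
theorem tot_v8 {t : ℂ} (ht : ‖t‖ < 1) :
    colY (tupC .v8 t) = tupC .v8 t 6 • H352.Sr 2 t 6 := by
  have hk : H352.kap 2 t 6 ≠ 0 := H352.kap_ne 2 ht (fun h => absurd h (by decide))
  have e : ∀ j, H352.kap 2 t j = pc / 2 * tupC .v8 t j := fun j => rfl
  have h0 : ∀ j : Fin 8, j < 6 → tupC .v8 t j = 0 := by
    intro j hj
    fin_cases j <;> first
      | exact absurd hj (by decide)
      | simp [tupC, tup0, tup1, evq_zero]
  have h6 : tupC .v8 t 6 ≠ 0 := by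
    intro h
    apply hk
    rw [e, h, mul_zero]
  unfold H352.Sr
  rw [H352.Sd_six H352.bch_r (H352.fit_BR 2), e, e, mul_div_mul_left _ _ (div_ne_zero pc_ne
    two_ne_zero)]
  funext j
  have h1 := h0 0 (by decide)
  have h2 := h0 1 (by decide)
  have h3 := h0 2 (by decide)
  have h4 := h0 3 (by decide)
  have h5 := h0 4 (by decide)
  have h7 := h0 5 (by decide)
  fin_cases j <;> simp [colY, h1, h2, h3, h4, h5, h7]
  field_simp

end

end Vale.Agent.P030.H514
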