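import Vale.Agent.P030.H336.Tab1
import Vale.Agent.P030.H514.Cusp2
import Vale.Agent.P030.H686.Cusp1F
import Vale.Agent.P030.H992.C0D
import Vale.Agent.P030.H782.C3Tr

/-!
# Route N: the constants of the four cells at the cusps = the cells 4, 0, 8, 9 of the table
-/

open Matrix

namespace Vale.Agent.P030.H514

open Vale.Agent.P030.AR Vale.Agent.P030.H124 Vale.Agent.P030.H336

set_option linter.unusedSimpArgs false
set_option linter.unreachableTactic false
set_option linter.unusedTactic false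

theorem bt8 : Bt fr1 8 = BF8 := by
  ext i j
  revert j
  fin_cases i <;> intro j <;> fin_cases j <;>
    simp [Bt, toB, Bf, fr1, mkF, frV1, vE, vB, vQ, vD, vV2, vS6, kA2, BF8, cfO, H336.get, cv,
      Cf.val, Cf.zero, Cf.one, mo, cq, cI, cu, cz, evL, Tm.ev]
  all_goals first
    | ring1
    | (ring_nf; simp only [Complex.I_sq]; ring1)

theorem bt4 : Bt fr1 4 = H992.BF4z := by
  ext i j
  revert j
  fin_cases i <;> intro j <;> fin_cases j <;>
    simp [Bt, toB, Bf, fr1, mkF, frV1, vE, vA, vAB, vD, vX2, vS6, kA0, H992.BF4z, cfO, H336.get,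
      cv, Cf.val, Cf.zero, Cf.one, mo, cq, cI, cu, cz, evL, Tm.ev]
  all_goals first
    | ring1
    | (ring_nf; simp only [Complex.I_sq]; ring1)

theorem bt0 : Bt fr1 0 = H686.BF0 := by
  ext i j
  revert j
  fin_cases i <;> intro j <;> fin_cases j <;>
    simp [Bt, toB, Bf, fr1, mkF, frV1, vE, vB, vAB, vD, vV2, vS6, kA1, H686.BF0, cfO, H336.get,
      cv, Cf.val, Cf.zero, Cf.one, mo, cq, cI, cu, cz, evL, Tm.ev]
  all_goals first
    | ring1
    | (ring_nf; simp only [Complex.I_sq]; ring1)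

theorem bt9 : Bt fr1 9 = H782.BF9 := by
  ext i j
  revert j
  fin_cases i <;> intro j <;> fin_cases j <;>
    simp [Bt, toB, Bf, fr1, mkF, frV1, vE, vA, vQ, vXl, vX2, vS6, kA0, H782.BF9, cfO, H336.get,
      cv, Cf.val, Cf.zero, Cf.one, mo, cq, cI, cu, cz, evL, Tm.ev]
  all_goals first
    | ring1
    | (ring_nf; simp only [Complex.I_sq]; ring1)

end Vale.Agent.P030.H514
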