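import Mathlib

/-!
# Interval families of polynomials and ranks of column pieces

`fam A p M d f = A * Σ_{i < d} f_i X^{p i}`, `deg f_i < M`: injective if `A ≠ 0`, `M ≤ p`, so its
range has dimension `d M`.  Finite products of such families.  Ranks of linear maps into function
spaces which factor through a small space outside a small set of coordinates.
-/

open Polynomial Module Finset

namespace Vale.Agent.P030.H514

variable {F : Type*} [Field F]

/-! ### dimension of `degreeLT` -/

theorem finrank_degreeLT (n : ℕ) : finrank F (degreeLT F n) = n := by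
  rw [(degreeLTEquiv F n).finrank_eq, finrank_fin_fun]

instance (n : ℕ) : FiniteDimensional F (degreeLT F n) :=
  Module.Finite.equiv (degreeLTEquiv F n).symm

theorem mem_degreeLT_iff_coeff {n : ℕ} {f : F[X]} :
    f ∈ degreeLT F n ↔ ∀ m, n ≤ m → f.coeff m = 0 := by
  rw [mem_degreeLT, degree_lt_iff_coeff_zero]

theorem mul_mem_degreeLT {A f : F[X]} {a M N : ℕ} (hA : A.natDegree ≤ a) (hf : f ∈ degreeLT F M)
    (h : a + M ≤ N) : A * f ∈ degreeLT F N := by
  rw [mem_degreeLT_iff_coeff]
  intro m hm
  by_cases h0 : f = 0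
  · simp [h0]
  have hM : f.natDegree < M := by
    rw [mem_degreeLT] at hf
    exact (natDegree_lt_iff_degree_lt h0).2 hf
  apply coeff_eq_zero_of_natDegree_lt
  have := natDegree_mul_le (p := A) (q := f)
  omega

/-! ### the family -/

/-- `f ↦ A Σ_{i < d} f_i X^{p i}` -/
noncomputable def fam (A : F[X]) (p M d : ℕ) : (Fin d → degreeLT F M) →ₗ[F] F[X] :=
  ∑ i : Fin d, (LinearMap.mulLeft F (A * X ^ (p * (i : ℕ)))) ∘ₗ (degreeLT F M).subtype ∘ₗ
    LinearMap.proj i

theorem fam_apply (A : F[X]) (p M d : ℕ) (f : Fin d → degreeLT F M) :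
    fam A p M d f = A * ∑ i : Fin d, (f i : F[X]) * X ^ (p * (i : ℕ)) := by
  simp only [fam, LinearMap.sum_apply, LinearMap.comp_apply, LinearMap.mulLeft_apply,
    LinearMap.proj_apply, Submodule.subtype_apply, Finset.mul_sum]
  refine Finset.sum_congr rfl fun i _ => ?_
  ring

theorem coeff_fam_sum {p M d : ℕ} (hM : M ≤ p) (f : Fin d → degreeLT F M) (i : Fin d) {r : ℕ}
    (hr : r < M) :
    (∑ j : Fin d, (f j : F[X]) * X ^ (p * (j : ℕ))).coeff (p * i + r) = (f i : F[X]).coeff r := by
  rw [finsetSum_coeff, Finset.sum_eq_single i]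
  · rw [Nat.add_comm, coeff_mul_X_pow]
  · intro j _ hj
    rw [coeff_mul_X_pow']
    split_ifs with h
    · apply mem_degreeLT_iff_coeff.1 (f j).2
      have hne : (j : ℕ) ≠ i := fun h => hj (Fin.ext h)
      have hlt : (j : ℕ) < i := by
        by_contra hcon
        have h1 : (i : ℕ) + 1 ≤ j := by omega
        have h2 : p * (i + 1) ≤ p * j := Nat.mul_le_mul_left p h1
        rw [Nat.mul_add] at h2
        omega
      have h3 : p * (j + 1) ≤ p * i := Nat.mul_le_mul_left p hlt
      rw [Nat.mul_add] at h3
      omega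
    · rfl
  · simp

theorem fam_injective {A : F[X]} (hA : A ≠ 0) {p M d : ℕ} (hM : M ≤ p) :
    Function.Injective (fam A p M d) := by
  rw [← LinearMap.ker_eq_bot, LinearMap.ker_eq_bot']
  intro f hf
  rw [fam_apply, mul_eq_zero, or_iff_right hA] at hf
  funext i
  apply Subtype.ext
  ext r
  by_cases hr : r < M
  · have := coeff_fam_sum hM f i hr
    rw [hf] at this
    simpa using this.symm
  · rw [mem_degreeLT_iff_coeff.1 (f i).2 r (by omega)]
    simp

theorem fam_mem {A : F[X]} {a p M d N : ℕ} (hA : A.natDegree ≤ a) (h : a + M + p * (d - 1) ≤ N)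
    (f : Fin d → degreeLT F M) : fam A p M d f ∈ degreeLT F N := by
  rw [fam_apply, Finset.mul_sum]
  refine Submodule.sum_mem _ fun i _ => ?_
  have h1 : (f i : F[X]) * X ^ (p * (i : ℕ)) ∈ degreeLT F (M + p * (d - 1)) := by
    rw [mem_degreeLT_iff_coeff]
    intro m hm
    rw [coeff_mul_X_pow']
    split_ifs with h2
    · apply mem_degreeLT_iff_coeff.1 (f i).2
      have h3 : (i : ℕ) ≤ d - 1 := by have := i.2; omega
      have h4 : p * (i : ℕ) ≤ p * (d - 1) := Nat.mul_le_mul_left p h3
      omega
    · rfl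
  exact mul_mem_degreeLT hA h1 (by omega)

/-- the family with values in `degreeLT F N` -/
noncomputable def famR {A : F[X]} {a p M d N : ℕ} (hA : A.natDegree ≤ a)
    (h : a + M + p * (d - 1) ≤ N) : (Fin d → degreeLT F M) →ₗ[F] degreeLT F N :=
  (fam A p M d).codRestrict _ (fam_mem hA h)

theorem famR_apply {A : F[X]} {a p M d N : ℕ} (hA : A.natDegree ≤ a)
    (h : a + M + p * (d - 1) ≤ N) (f : Fin d → degreeLT F M) :
    (famR hA h f : F[X]) = A * ∑ i : Fin d, (f i : F[X]) * X ^ (p * (i : ℕ)) :=
  fam_apply A p M d f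

theorem famR_injective {A : F[X]} {a p M d N : ℕ} (hA : A.natDegree ≤ a)
    (h : a + M + p * (d - 1) ≤ N) (hA0 : A ≠ 0) (hM : M ≤ p) :
    Function.Injective (famR hA h) := by
  intro f g hfg
  apply fam_injective hA0 hM
  exact congrArg Subtype.val hfg

theorem finrank_fam_dom (M d : ℕ) : finrank F (Fin d → degreeLT F M) = d * M := by
  rw [finrank_pi_fintype]
  simp [finrank_degreeLT]

theorem finrank_range_fam {A : F[X]} (hA : A ≠ 0) {p M d : ℕ} (hM : M ≤ p) :
    finrank F (LinearMap.range (fam A p M d)) = d * M := by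
  rw [LinearMap.finrank_range_of_inj (fam_injective hA hM), finrank_fam_dom]

/-! ### products -/

section Prod

variable {J : Type*} [Fintype J] (A : J → F[X]) (a d N : J → ℕ) (p M : ℕ)

/-- the product family -/
noncomputable def pfam (hA : ∀ j, (A j).natDegree ≤ a j)
    (h : ∀ j, a j + M + p * (d j - 1) ≤ N j) :
    (∀ j, Fin (d j) → degreeLT F M) →ₗ[F] (∀ j, degreeLT F (N j)) :=
  LinearMap.pi fun j => famR (hA j) (h j) ∘ₗ LinearMap.proj j

variable {A a d N p M}

theorem pfam_apply (hA : ∀ j, (A j).natDegree ≤ a j) (h : ∀ j, a j + M + p * (d j - 1) ≤ N j)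
    (f : ∀ j, Fin (d j) → degreeLT F M) (j : J) :
    (pfam A a d N p M hA h f j : F[X]) =
      A j * ∑ i : Fin (d j), (f j i : F[X]) * X ^ (p * (i : ℕ)) :=
  famR_apply (hA j) (h j) (f j)

theorem pfam_injective (hA : ∀ j, (A j).natDegree ≤ a j)
    (h : ∀ j, a j + M + p * (d j - 1) ≤ N j) (hA0 : ∀ j, A j ≠ 0) (hM : M ≤ p) :
    Function.Injective (pfam A a d N p M hA h) := by
  intro f g hfg
  funext j
  apply famR_injective (hA j) (h j) (hA0 j) hM
  exact congrFun hfg j

theorem finrank_range_pfam (hA : ∀ j, (A j).natDegree ≤ a j)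
    (h : ∀ j, a j + M + p * (d j - 1) ≤ N j) (hA0 : ∀ j, A j ≠ 0) (hM : M ≤ p) :
    finrank F (LinearMap.range (pfam A a d N p M hA h)) = (∑ j, d j) * M := by
  rw [LinearMap.finrank_range_of_inj (pfam_injective hA h hA0 hM), finrank_pi_fintype,
    Finset.sum_mul]
  exact Finset.sum_congr rfl fun j _ => finrank_fam_dom M (d j)

end Prod

/-! ### ranks of pieces -/

section Rank

variable {W E' : Type*} [AddCommGroup W] [Module F W] [AddCommGroup E'] [Module F E']
  {N' : Type*} [DecidableEq N']

/-- `L` factors through `E'` outside the set `T` of coordinates -/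
theorem finrank_range_le_split [FiniteDimensional F E'] (L : W →ₗ[F] (N' → F)) (T : Finset N')
    (E : W →ₗ[F] E') (L' : E' →ₗ[F] (N' → F)) (h : ∀ w, ∀ c, c ∉ T → L w c = L' (E w) c) :
    finrank F (LinearMap.range L) ≤ finrank F E' + T.card := by
  classical
  let S : Submodule F (N' → F) := Submodule.span F (T.image fun c => (Pi.single c 1 : N' → F))
  have hS : finrank F S ≤ T.card :=
    (finrank_span_finset_le_card _).trans Finset.card_image_le
  have hle : LinearMap.range L ≤ LinearMap.range L' ⊔ S := by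
    rintro _ ⟨w, rfl⟩
    have h1 : L w = L' (E w) + ∑ c ∈ T, (L w c - L' (E w) c) • (Pi.single c 1 : N' → F) := by
      funext c
      rw [Pi.add_apply, Finset.sum_apply]
      by_cases hc : c ∈ T
      · rw [Finset.sum_eq_single c]
        · simp
        · intro b _ hb
          simp [hb.symm]
        · exact fun h => absurd hc h
      · rw [Finset.sum_eq_zero, add_zero, h w c hc]
        intro b hb
        have : c ≠ b := fun h => hc (h ▸ hb)
        simp [this]
    rw [h1]
    refine Submodule.add_mem_sup ⟨_, rfl⟩ (Submodule.sum_mem _ fun c hc => ?_)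
    refine Submodule.smul_mem _ _ (Submodule.subset_span ?_)
    exact Finset.mem_coe.2 (Finset.mem_image_of_mem _ hc)
  have : FiniteDimensional F S := by
    refine FiniteDimensional.span_of_finite F ?_
    exact Finset.finite_toSet _
  have : FiniteDimensional F (LinearMap.range L' ⊔ S : Submodule F (N' → F)) := by
    infer_instance
  calc finrank F (LinearMap.range L) ≤ finrank F (LinearMap.range L' ⊔ S : Submodule F (N' → F)) :=
        Submodule.finrank_mono hle
    _ ≤ finrank F (LinearMap.range L') + finrank F S := Submodule.finrank_add_le_finrank_add_finrank _ _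
    _ ≤ finrank F E' + T.card := add_le_add (LinearMap.finrank_range_le L') hS

/-- the image is supported on `T` -/
theorem finrank_range_le_card (L : W →ₗ[F] (N' → F)) (T : Finset N')
    (h : ∀ w, ∀ c, c ∉ T → L w c = 0) : finrank F (LinearMap.range L) ≤ T.card := by
  have := finrank_range_le_split (E' := Fin 0 → F) L T 0 0 (fun w c hc => by simpa using h w c hc)
  simpa using this

/-- `L` factors through `E'` -/
theorem finrank_range_le_factor [FiniteDimensional F E'] (L : W →ₗ[F] (N' → F))
    (E : W →ₗ[F] E') (L' : E' →ₗ[F] (N' → F)) (h : ∀ w, L w = L' (E w)) :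
    finrank F (LinearMap.range L) ≤ finrank F E' := by
  simpa using finrank_range_le_split L ∅ E L' (fun w c _ => by rw [h w])

end Rank

end Vale.Agent.P030.H514
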