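import Vale.Agent.P030.H514.IntFam

/-!
# Two interval families in characteristic `p`

`Σ_{i<d} f_i V^i + (S-1)^e A Σ_{i<d'} g_i V^i = 0`, `V = S^p`, `deg f_i < e`, `deg g_i < p - e`,
`A(1) ≠ 0` implies that all `f_i`, `g_i` vanish.
-/

open Polynomial Module Finset

namespace Vale.Agent.P030.H514

variable {F : Type*} [Field F]

/-- polynomials whose coefficient of `X^m` vanishes unless `m mod p < e` -/
def Pat (p e : ℕ) : Submodule F F[X] where
  carrier := {f | ∀ m, e ≤ m % p → f.coeff m = 0}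
  add_mem' := fun {f g} hf hg m hm => by rw [coeff_add, hf m hm, hg m hm, add_zero]
  zero_mem' := fun m _ => coeff_zero m
  smul_mem' := fun c f hf m hm => by rw [coeff_smul, hf m hm, smul_zero]

theorem mem_Pat {p e : ℕ} {f : F[X]} : f ∈ Pat p e ↔ ∀ m, e ≤ m % p → f.coeff m = 0 := Iff.rfl

theorem degreeLT_le_Pat {p e : ℕ} : degreeLT F e ≤ (Pat p e : Submodule F F[X]) := by
  intro f hf m hm
  exact mem_degreeLT_iff_coeff.1 hf m (hm.trans (Nat.mod_le m p))

theorem Pat_mul_X_pow {p e : ℕ} {f : F[X]} (hf : f ∈ Pat p e) : f * X ^ p ∈ Pat p e := by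
  intro m hm
  rw [coeff_mul_X_pow']
  split_ifs with h
  · apply hf
    have : m % p = (m - p) % p := by
      conv_lhs => rw [← Nat.sub_add_cancel h]
      rw [Nat.add_mod_right]
    omega
  · rfl

theorem Pat_mul_pow {p e : ℕ} {f : F[X]} (hf : f ∈ Pat p e) (i : ℕ) :
    f * (X ^ p + 1) ^ i ∈ Pat p e := by
  induction i with
  | zero => simpa using hf
  | succ i ih =>
    have : f * (X ^ p + 1) ^ (i + 1) = f * (X ^ p + 1) ^ i * X ^ p + f * (X ^ p + 1) ^ i := by
      rw [pow_succ]; ring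
    rw [this]
    exact Submodule.add_mem _ (Pat_mul_X_pow ih) ih

theorem pow_dvd_iff_coeff {n : ℕ} {f : F[X]} : X ^ n ∣ f ↔ ∀ m < n, f.coeff m = 0 :=
  X_pow_dvd_iff

/-- the descent -/
theorem pat_descent {p e e' : ℕ} (he : e + e' ≤ p) {P Q A : F[X]} (hP : P ∈ Pat p e)
    (hQ : Q ∈ Pat p e') (hA : A.coeff 0 ≠ 0) (h : P = X ^ e * (A * Q)) :
    ∀ k, X ^ (p * k) ∣ P ∧ X ^ (p * k) ∣ Q := by
  have hX : Prime (X : F[X]) := prime_X
  have hXA : ¬ X ∣ A := fun hd => hA (X_dvd_iff.1 hd)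
  intro k
  induction k with
  | zero => simp
  | succ k ih =>
    rcases Nat.eq_zero_or_pos p with hp0 | hp
    · subst hp0; simp
    obtain ⟨h1, h2⟩ := ih
    have hP1 : X ^ (p * k + e) ∣ P := by
      rw [h, Nat.add_comm, pow_add]
      exact mul_dvd_mul_left _ (h2.mul_left A)
    have key : ∀ (f : F[X]) (a : ℕ), f ∈ Pat p a → (∀ m < p * k + a, f.coeff m = 0) →
        ∀ m < p * (k + 1), f.coeff m = 0 := by
      intro f a hf hlow m hm
      by_cases hm1 : m < p * k + a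
      · exact hlow m hm1
      · apply hf
        have h3 : m = (m - p * k) + p * k := by omega
        rw [h3, Nat.add_mul_mod_self_left, Nat.mod_eq_of_lt]
        · omega
        · rw [Nat.mul_add] at hm; omega
    have hP2 : X ^ (p * (k + 1)) ∣ P :=
      pow_dvd_iff_coeff.2 (key P e hP (pow_dvd_iff_coeff.1 hP1))
    refine ⟨hP2, ?_⟩
    have hQ1 : X ^ (p * k + e') ∣ Q := by
      have h3 : X ^ e * X ^ (p * k + e') ∣ X ^ e * (A * Q) := by
        rw [← h, ← pow_add]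
        refine (pow_dvd_pow X ?_).trans hP2
        rw [Nat.mul_add]; omega
      have h4 : X ^ (p * k + e') ∣ A * Q :=
        (mul_dvd_mul_iff_left (pow_ne_zero e X_ne_zero)).1 h3
      exact hX.pow_dvd_of_dvd_mul_left _ hXA h4
    exact pow_dvd_iff_coeff.2 (key Q e' hQ (pow_dvd_iff_coeff.1 hQ1))

theorem eq_zero_of_pow_dvd {p : ℕ} (hp : 0 < p) {P : F[X]} (h : ∀ k, X ^ (p * k) ∣ P) : P = 0 := by
  ext m
  rw [coeff_zero]
  refine pow_dvd_iff_coeff.1 (h (m + 1)) m ?_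
  calc m < 1 * (m + 1) := by omega
    _ ≤ p * (m + 1) := Nat.mul_le_mul_right _ hp

/-- the shift `S ↦ T + 1` -/
theorem comp_mem_degreeLT {n : ℕ} {f : F[X]} (hf : f ∈ degreeLT F n) :
    f.comp (X + 1) ∈ degreeLT F n := by
  by_cases h0 : f = 0
  · simp [h0]
  rw [mem_degreeLT] at hf ⊢
  have h1 : f.natDegree < n := (natDegree_lt_iff_degree_lt h0).2 hf
  refine lt_of_le_of_lt degree_le_natDegree ?_
  have h2 : (f.comp (X + 1)).natDegree ≤ f.natDegree := by
    have := natDegree_comp_le (p := f) (q := (X + 1 : F[X]))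
    have h3 : (X + 1 : F[X]).natDegree ≤ 1 := by
      have := natDegree_add_le (X : F[X]) 1
      simpa using this
    calc _ ≤ f.natDegree * (X + 1 : F[X]).natDegree := this
      _ ≤ f.natDegree * 1 := Nat.mul_le_mul_left _ h3
      _ = f.natDegree := mul_one _
  exact_mod_cast lt_of_le_of_lt h2 h1

theorem two_piece {p : ℕ} [hp : Fact p.Prime] [CharP F p] {e M1 M2 d d' : ℕ} (h1 : M1 ≤ e)
    (h2 : e + M2 ≤ p) {A : F[X]} (hA : A.eval 1 ≠ 0) (f : Fin d → degreeLT F M1)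
    (g : Fin d' → degreeLT F M2)
    (h : ∑ i : Fin d, (f i : F[X]) * X ^ (p * (i : ℕ)) +
      (X - 1) ^ e * (A * ∑ i : Fin d', (g i : F[X]) * X ^ (p * (i : ℕ))) = 0) :
    f = 0 ∧ g = 0 := by
  set P0 := ∑ i : Fin d, (f i : F[X]) * X ^ (p * (i : ℕ)) with hP0
  set Q0 := ∑ i : Fin d', (g i : F[X]) * X ^ (p * (i : ℕ)) with hQ0
  have hfrob : ((X + 1 : F[X])) ^ p = X ^ p + 1 := by
    rw [add_pow_char, one_pow]
  have hcomp : ∀ {n m : ℕ} (u : Fin n → degreeLT F m),
      (∑ i : Fin n, (u i : F[X]) * X ^ (p * (i : ℕ))).comp (X + 1) ∈ Pat p m := by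
    intro n m u
    have hc : ∀ R : F[X], R.comp (X + 1) = compRingHom (X + 1) R := fun R => rfl
    rw [hc, map_sum]
    refine Submodule.sum_mem _ fun i _ => ?_
    rw [← hc, mul_comp, X_pow_comp, pow_mul, hfrob]
    exact Pat_mul_pow (degreeLT_le_Pat (comp_mem_degreeLT (u i).2)) _
  have hP : P0.comp (X + 1) ∈ Pat p e := by
    intro m hm
    exact hcomp f m (h1.trans hm)
  have hQ : -(Q0.comp (X + 1)) ∈ Pat p M2 := Submodule.neg_mem _ (hcomp g)
  have hA' : (A.comp (X + 1)).coeff 0 ≠ 0 := by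
    rw [coeff_zero_eq_eval_zero, eval_comp]
    simpa using hA
  have hrel : P0.comp (X + 1) = X ^ e * (A.comp (X + 1) * -(Q0.comp (X + 1))) := by
    have h3 : P0 = -((X - 1) ^ e * (A * Q0)) := eq_neg_of_add_eq_zero_left h
    rw [h3]
    simp only [neg_comp, mul_comp, pow_comp, sub_comp, X_comp, one_comp, add_sub_cancel_right]
    ring
  have hdes := pat_descent h2 hP hQ hA' hrel
  have hPz : P0.comp (X + 1) = 0 := eq_zero_of_pow_dvd hp.out.pos fun k => (hdes k).1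
  have hQz : Q0.comp (X + 1) = 0 := by
    have := eq_zero_of_pow_dvd hp.out.pos fun k => (hdes k).2
    exact neg_eq_zero.1 this
  have hinv : ∀ R : F[X], R.comp (X + 1) = 0 → R = 0 := by
    intro R hR
    have : (R.comp (X + 1)).comp (X - 1) = R := by
      rw [comp_assoc]; simp
    rw [← this, hR, zero_comp]
  have hP00 := hinv P0 hPz
  have hQ00 := hinv Q0 hQz
  have hfin : ∀ {n m : ℕ} (u : Fin n → degreeLT F m), m ≤ p →
      (∑ i : Fin n, (u i : F[X]) * X ^ (p * (i : ℕ))) = 0 → u = 0 := by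
    intro n m u hm hu
    apply fam_injective (one_ne_zero : (1 : F[X]) ≠ 0) (p := p) hm
    rw [fam_apply, hu, mul_zero, map_zero]
  exact ⟨hfin f (by omega) hP00, hfin g (by omega) hQ00⟩

/-- the two-piece family with a common factor -/
noncomputable def fam2 (B A : F[X]) (p e M1 M2 d d' : ℕ) :
    (Fin d → degreeLT F M1) × (Fin d' → degreeLT F M2) →ₗ[F] F[X] :=
  LinearMap.coprod (fam B p M1 d) (fam (B * ((X - 1) ^ e * A)) p M2 d')

theorem fam2_apply (B A : F[X]) (p e M1 M2 d d' : ℕ)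
    (w : (Fin d → degreeLT F M1) × (Fin d' → degreeLT F M2)) :
    fam2 B A p e M1 M2 d d' w = B * (∑ i : Fin d, (w.1 i : F[X]) * X ^ (p * (i : ℕ)) +
      (X - 1) ^ e * (A * ∑ i : Fin d', (w.2 i : F[X]) * X ^ (p * (i : ℕ)))) := by
  rw [fam2, LinearMap.coprod_apply, fam_apply, fam_apply]
  ring

theorem fam2_injective {p : ℕ} [hp : Fact p.Prime] [CharP F p] {e M1 M2 d d' : ℕ} (h1 : M1 ≤ e)
    (h2 : e + M2 ≤ p) {A B : F[X]} (hA : A.eval 1 ≠ 0) (hB : B ≠ 0) :
    Function.Injective (fam2 B A p e M1 M2 d d') := by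
  rw [← LinearMap.ker_eq_bot, LinearMap.ker_eq_bot']
  rintro ⟨f, g⟩ hw
  rw [fam2_apply, mul_eq_zero, or_iff_right hB] at hw
  obtain ⟨h3, h4⟩ := two_piece h1 h2 hA f g hw
  rw [h3, h4]; rfl

theorem finrank_range_fam2 {p : ℕ} [hp : Fact p.Prime] [CharP F p] {e M1 M2 d d' : ℕ}
    (h1 : M1 ≤ e) (h2 : e + M2 ≤ p) {A B : F[X]} (hA : A.eval 1 ≠ 0) (hB : B ≠ 0) :
    finrank F (LinearMap.range (fam2 B A p e M1 M2 d d')) = d * M1 + d' * M2 := by
  rw [LinearMap.finrank_range_of_inj (fam2_injective h1 h2 hA hB), finrank_prod, finrank_fam_dom,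
    finrank_fam_dom]

end Vale.Agent.P030.H514
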